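import Crest.Prelude.Def_SwitchChain

/-!
# Connectivity of the switch graph on realizations of a degree vector

We prove that any two realizations of a degree vector are connected by switches, with a simple
argument that does not use canonical forms.

Freeze a set of vertices `W` on which the two graphs agree; take `v ∉ W`, `y ∈ N_H(v) \ N_H'(v)`,
`x ∈ N_H'(v) \ N_H(v)`.  Comparing residual degrees outside `W ∪ {v}` in `H` and `H'`, one of the
two graphs admits a switch moving its neighbourhood of `v` towards the other one's.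
-/

set_option autoImplicit false

namespace Crest.Agent.SW

open Finset Crest.SwitchChain

variable {n : ℕ}

/-- The edge on a pair of distinct vertices. -/
def mkEdge (x y : Fin n) (h : x ≠ y) : Edge n := ⟨s(x, y), by simpa [Sym2.mk_isDiag_iff] using h⟩

lemma mkEdge_comm (x y : Fin n) (h : x ≠ y) : mkEdge x y h = mkEdge y x h.symm := by
  apply Subtype.ext
  exact Sym2.eq_swap

/-- Same unordered pair. -/
def IsPair (x y a c : Fin n) : Prop := (x = a ∧ y = c) ∨ (x = c ∧ y = a)

lemma mkEdge_eq_iff {x y a c : Fin n} (h : x ≠ y) (h' : a ≠ c) :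
    mkEdge x y h = mkEdge a c h' ↔ IsPair x y a c := by
  unfold mkEdge IsPair
  rw [Subtype.mk.injEq, Sym2.eq_iff]

/-- Adjacency in a graph given by its edge set. -/
def Adj (G : Finset (Edge n)) (x y : Fin n) : Prop := ∃ h : x ≠ y, mkEdge x y h ∈ G

lemma Adj.symm {G : Finset (Edge n)} {x y : Fin n} (h : Adj G x y) : Adj G y x := by
  obtain ⟨hne, hm⟩ := h
  exact ⟨hne.symm, by rwa [← mkEdge_comm]⟩

lemma adj_comm {G : Finset (Edge n)} {x y : Fin n} : Adj G x y ↔ Adj G y x := ⟨Adj.symm, Adj.symm⟩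

lemma Adj.ne {G : Finset (Edge n)} {x y : Fin n} (h : Adj G x y) : x ≠ y := h.1

lemma adj_mk {G : Finset (Edge n)} {x y : Fin n} (h : x ≠ y) : Adj G x y ↔ mkEdge x y h ∈ G :=
  ⟨fun ⟨_, hm⟩ => hm, fun hm => ⟨h, hm⟩⟩

lemma edge_exists (e : Edge n) : ∃ (x y : Fin n) (h : x ≠ y), e = mkEdge x y h := by
  obtain ⟨e, he⟩ := e
  induction e using Sym2.ind with
  | _ x y =>
    have h : x ≠ y := by simpa [Sym2.mk_isDiag_iff] using he
    exact ⟨x, y, h, rfl⟩

lemma graph_ext {G G' : Finset (Edge n)} (h : ∀ x y, Adj G x y ↔ Adj G' x y) : G = G' := by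
  ext e
  obtain ⟨x, y, hxy, rfl⟩ := edge_exists e
  rw [← adj_mk hxy, ← adj_mk hxy]
  exact h x y

open Classical in
/-- Neighbourhood of a vertex. -/
noncomputable def nbr (G : Finset (Edge n)) (v : Fin n) : Finset (Fin n) :=
  univ.filter fun u => Adj G v u

lemma mem_nbr {G : Finset (Edge n)} {v u : Fin n} : u ∈ nbr G v ↔ Adj G v u := by
  simp [nbr]

lemma deg_eq_card_nbr (G : Finset (Edge n)) (v : Fin n) : deg G v = (nbr G v).card := by
  classical
  unfold deg
  symm
  refine Finset.card_bij (fun u hu => mkEdge v u (mem_nbr.1 hu).ne) ?_ ?_ ?_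
  · intro u hu
    obtain ⟨hne, hm⟩ := mem_nbr.1 hu
    simp only [mem_filter]
    refine ⟨hm, ?_⟩
    simp [mkEdge]
  · intro u hu w hw h
    have := (mkEdge_eq_iff _ _).1 h
    rcases this with ⟨_, h⟩ | ⟨h1, h2⟩
    · exact h
    · exact absurd h1 (mem_nbr.1 hw).ne
  · intro e he
    obtain ⟨heG, hv⟩ := mem_filter.1 he
    obtain ⟨x, y, hxy, rfl⟩ := edge_exists e
    have hv' : v = x ∨ v = y := by simpa [mkEdge] using hv
    rcases hv' with rfl | rfl
    · exact ⟨y, mem_nbr.2 ⟨hxy, heG⟩, rfl⟩
    · exact ⟨x, mem_nbr.2 (Adj.symm ⟨hxy, heG⟩), mkEdge_comm _ _ _⟩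

/-- `G'` arises from `G` by the switch `ac, be → ae, bc` on four distinct vertices. -/
def SwapStep (G G' : Finset (Edge n)) : Prop :=
  ∃ (a b c e : Fin n), a ≠ b ∧ a ≠ c ∧ a ≠ e ∧ b ≠ c ∧ b ≠ e ∧ c ≠ e ∧
    Adj G a c ∧ Adj G b e ∧ ¬ Adj G a e ∧ ¬ Adj G b c ∧
    ∀ x y, Adj G' x y ↔
      (Adj G x y ∧ ¬ IsPair x y a c ∧ ¬ IsPair x y b e) ∨ IsPair x y a e ∨ IsPair x y b c

section swap

variable (G : Finset (Edge n)) {a b c e : Fin n}

open Classical in
/-- The switched graph. -/
noncomputable def swapG (G : Finset (Edge n)) (a b c e : Fin n)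
    (hac : a ≠ c) (hbe : b ≠ e) (hae : a ≠ e) (hbc : b ≠ c) : Finset (Edge n) :=
  (G \ {mkEdge a c hac, mkEdge b e hbe}) ∪ {mkEdge a e hae, mkEdge b c hbc}

lemma isPair_ne {x y a c : Fin n} (h : a ≠ c) (hp : IsPair x y a c) : x ≠ y := by
  rcases hp with ⟨rfl, rfl⟩ | ⟨rfl, rfl⟩
  · exact h
  · exact h.symm

lemma adj_swapG (hac : a ≠ c) (hbe : b ≠ e) (hae : a ≠ e) (hbc : b ≠ c) (x y : Fin n) :
    Adj (swapG G a b c e hac hbe hae hbc) x y ↔
      (Adj G x y ∧ ¬ IsPair x y a c ∧ ¬ IsPair x y b e) ∨ IsPair x y a e ∨ IsPair x y b c := by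
  classical
  by_cases hxy : x = y
  · subst hxy
    constructor
    · rintro ⟨h, _⟩
      exact absurd rfl h
    · rintro (⟨⟨h, _⟩, _⟩ | h | h)
      · exact absurd rfl h
      · exact absurd rfl (isPair_ne hae h)
      · exact absurd rfl (isPair_ne hbc h)
  · rw [adj_mk hxy, adj_mk hxy]
    simp only [swapG, mem_union, mem_sdiff, mem_insert, mem_singleton, mkEdge_eq_iff, not_or]

lemma swapStep_swapG (hab : a ≠ b) (hac : a ≠ c) (hae : a ≠ e) (hbc : b ≠ c) (hbe : b ≠ e)
    (hce : c ≠ e) (h1 : Adj G a c) (h2 : Adj G b e) (h3 : ¬ Adj G a e) (h4 : ¬ Adj G b c) :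
    SwapStep G (swapG G a b c e hac hbe hae hbc) :=
  ⟨a, b, c, e, hab, hac, hae, hbc, hbe, hce, h1, h2, h3, h4, adj_swapG G hac hbe hae hbc⟩

end swap

lemma swapStep_eq_swapG {G G' : Finset (Edge n)} {a b c e : Fin n}
    (hac : a ≠ c) (hbe : b ≠ e) (hae : a ≠ e) (hbc : b ≠ c)
    (h : ∀ x y, Adj G' x y ↔
      (Adj G x y ∧ ¬ IsPair x y a c ∧ ¬ IsPair x y b e) ∨ IsPair x y a e ∨ IsPair x y b c) :
    G' = swapG G a b c e hac hbe hae hbc :=
  graph_ext fun x y => by rw [h, adj_swapG]

/-- Switches are reversible. -/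
lemma SwapStep.symm {G G' : Finset (Edge n)} (h : SwapStep G G') : SwapStep G' G := by
  obtain ⟨a, b, c, e, hab, hac, hae, hbc, hbe, hce, h1, h2, h3, h4, hG'⟩ := h
  have pa : ∀ {x y p q : Fin n}, (x = p ∧ y = q) → IsPair x y p q := fun h => Or.inl h
  refine ⟨a, b, e, c, hab, hae, hac, hbe, hbc, hce.symm, ?_, ?_, ?_, ?_, ?_⟩
  · rw [hG']; exact Or.inr (Or.inl (Or.inl ⟨rfl, rfl⟩))
  · rw [hG']; exact Or.inr (Or.inr (Or.inl ⟨rfl, rfl⟩))
  · rw [hG']
    rintro (⟨_, h, _⟩ | h | h)
    · exact h (Or.inl ⟨rfl, rfl⟩)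
    · rcases h with ⟨_, h⟩ | ⟨h, _⟩
      · exact hce.symm h.symm |>.elim
      · exact hae h |>.elim
    · rcases h with ⟨h, _⟩ | ⟨h, _⟩
      · exact hab h |>.elim
      · exact hac.symm h.symm |>.elim
  · rw [hG']
    rintro (⟨_, _, h⟩ | h | h)
    · exact h (Or.inl ⟨rfl, rfl⟩)
    · rcases h with ⟨h, _⟩ | ⟨h, _⟩
      · exact hab h.symm |>.elim
      · exact hbe h |>.elim
    · rcases h with ⟨_, h⟩ | ⟨h, _⟩
      · exact hce h.symm |>.elim
      · exact hbc h |>.elim
  · intro x y
    rw [hG']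
    by_cases p1 : IsPair x y a c
    · have : Adj G x y := by
        rcases p1 with ⟨rfl, rfl⟩ | ⟨rfl, rfl⟩
        · exact h1
        · exact h1.symm
      tauto
    by_cases p2 : IsPair x y b e
    · have : Adj G x y := by
        rcases p2 with ⟨rfl, rfl⟩ | ⟨rfl, rfl⟩
        · exact h2
        · exact h2.symm
      tauto
    by_cases p3 : IsPair x y a e
    · have : ¬ Adj G x y := by
        rcases p3 with ⟨rfl, rfl⟩ | ⟨rfl, rfl⟩
        · exact h3
        · exact fun h => h3 h.symm
      have p4 : ¬ IsPair x y b c := by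
        rintro (⟨rfl, rfl⟩ | ⟨rfl, rfl⟩) <;> rcases p3 with ⟨h5, h6⟩ | ⟨h5, h6⟩ <;> simp_all
      have p5 : ¬ IsPair x y a c := p1
      tauto
    by_cases p4 : IsPair x y b c
    · have : ¬ Adj G x y := by
        rcases p4 with ⟨rfl, rfl⟩ | ⟨rfl, rfl⟩
        · exact h4
        · exact fun h => h4 h.symm
      tauto
    tauto


lemma card_of_move {A B : Finset (Fin n)} {p q : Fin n} (hq : q ∈ A) (hp : p ∉ A)
    (h : ∀ w, w ∈ B ↔ (w ∈ A ∧ w ≠ q) ∨ w = p) : B.card = A.card := by
  classical
  have hB : B = insert p (A.erase q) := by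
    ext w
    rw [h, mem_insert, mem_erase]
    tauto
  have hp' : p ∉ A.erase q := fun hh => hp (mem_of_mem_erase hh)
  rw [hB, card_insert_of_notMem hp', card_erase_of_mem hq]
  have : 0 < A.card := card_pos.2 ⟨q, hq⟩
  omega

/-- Switches preserve all degrees. -/
lemma SwapStep.deg_eq {G G' : Finset (Edge n)} (h : SwapStep G G') (u : Fin n) :
    deg G' u = deg G u := by
  obtain ⟨a, b, c, e, hab, hac, hae, hbc, hbe, hce, h1, h2, h3, h4, hG'⟩ := h
  rw [deg_eq_card_nbr, deg_eq_card_nbr]
  by_cases hua : u = a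
  · subst hua
    refine card_of_move (p := e) (q := c) (mem_nbr.2 h1) (fun hh => h3 (mem_nbr.1 hh)) fun w => ?_
    rw [mem_nbr, mem_nbr, hG']
    simp [IsPair, hab, hac, hae]
  by_cases hub : u = b
  · subst hub
    refine card_of_move (p := c) (q := e) (mem_nbr.2 h2) (fun hh => h4 (mem_nbr.1 hh)) fun w => ?_
    rw [mem_nbr, mem_nbr, hG']
    simp [IsPair, hab.symm, hbc, hbe]
  by_cases huc : u = c
  · subst huc
    refine card_of_move (p := b) (q := a) (mem_nbr.2 h1.symm)
      (fun hh => h4 (mem_nbr.1 hh).symm) fun w => ?_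
    rw [mem_nbr, mem_nbr, hG']
    simp [IsPair, hac.symm, hbc.symm, hce]
  by_cases hue : u = e
  · subst hue
    refine card_of_move (p := a) (q := b) (mem_nbr.2 h2.symm)
      (fun hh => h3 (mem_nbr.1 hh).symm) fun w => ?_
    rw [mem_nbr, mem_nbr, hG']
    simp [IsPair, hae.symm, hbe.symm, hce.symm]
  · congr 1
    ext w
    rw [mem_nbr, mem_nbr, hG']
    simp [IsPair, hua, hub, huc, hue]

lemma SwapStep.mem_realizations {d : Fin n → ℕ} {G G' : Finset (Edge n)} (h : SwapStep G G')
    (hG : G ∈ realizations d) : G' ∈ realizations d := by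
  simp only [realizations, mem_filter, mem_univ, true_and] at hG ⊢
  intro v
  rw [h.deg_eq, hG]

lemma pm_mem {a b c e : Fin n} (hab : a ≠ b) (hac : a ≠ c) (hae : a ≠ e) (hbc : b ≠ c)
    (hbe : b ≠ e) (hce : c ≠ e) :
    ({mkEdge a c hac, mkEdge b e hbe} : Finset (Edge n)) ∈ pmSet ({a, b, c, e} : Finset (Fin n)) := by
  classical
  have hne : mkEdge a c hac ≠ mkEdge b e hbe := by
    rw [Ne, mkEdge_eq_iff]
    rintro (⟨h, _⟩ | ⟨h, _⟩)
    · exact hab h
    · exact hae h
  simp only [pmSet, mem_filter, mem_powersetCard, subset_univ, true_and]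
  refine ⟨card_pair hne, ?_, ?_⟩
  · intro f hf v hv
    simp only [mem_insert, mem_singleton] at hf ⊢
    rcases hf with rfl | rfl <;> simp [mkEdge, Sym2.mem_iff] at hv <;> tauto
  · intro v hv
    simp only [mem_insert, mem_singleton] at hv
    rw [filter_insert, filter_singleton]
    rcases hv with rfl | rfl | rfl | rfl
    · simp [mkEdge, Sym2.mem_iff, hab, hae]
    · simp [mkEdge, Sym2.mem_iff, hab.symm, hbc]
    · simp [mkEdge, Sym2.mem_iff, hbc.symm, hce]
    · simp [mkEdge, Sym2.mem_iff, hae.symm, hce.symm]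

/-- A switch has a proposal realising it. -/
lemma SwapStep.proposalCount_pos {G G' : Finset (Edge n)} (h : SwapStep G G') :
    0 < proposalCount G G' := by
  classical
  obtain ⟨a, b, c, e, hab, hac, hae, hbc, hbe, hce, h1, h2, h3, h4, hG'⟩ := h
  have hS : ({a, b, c, e} : Finset (Fin n)) ∈ (univ : Finset (Fin n)).powersetCard 4 := by
    rw [mem_powersetCard]
    refine ⟨subset_univ _, ?_⟩
    rw [card_insert_of_notMem, card_insert_of_notMem, card_pair hce] <;> simp [hab, hac, hae, hbc, hbe]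
  have hF := pm_mem hab hac hae hbc hbe hce
  have hF' : ({mkEdge a e hae, mkEdge b c hbc} : Finset (Edge n)) ∈
      pmSet ({a, b, c, e} : Finset (Fin n)) := by
    have := pm_mem hab hae hac hbe hbc hce.symm
    have hSS : ({a, b, e, c} : Finset (Fin n)) = {a, b, c, e} := by
      ext w; simp only [mem_insert, mem_singleton]; tauto
    rwa [hSS] at this
  have hne : ({mkEdge a e hae, mkEdge b c hbc} : Finset (Edge n)) ≠
      {mkEdge a c hac, mkEdge b e hbe} := by
    intro h
    have hm : mkEdge a c hac ∈ ({mkEdge a e hae, mkEdge b c hbc} : Finset (Edge n)) := by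
      rw [h]; simp
    simp only [mem_insert, mem_singleton, mkEdge_eq_iff] at hm
    rcases hm with (⟨_, h⟩ | ⟨h, _⟩) | (⟨h, _⟩ | ⟨h, _⟩)
    · exact hce h
    · exact hae h
    · exact hab h
    · exact hac h
  have hres : switchResult G {mkEdge a c hac, mkEdge b e hbe} {mkEdge a e hae, mkEdge b c hbc}
      = G' := by
    have hcond : ({mkEdge a c hac, mkEdge b e hbe} : Finset (Edge n)) ⊆ G ∧
        Disjoint ({mkEdge a e hae, mkEdge b c hbc} : Finset (Edge n)) G := by
      constructor
      · intro f hf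
        simp only [mem_insert, mem_singleton] at hf
        rcases hf with rfl | rfl
        · exact (adj_mk hac).1 h1
        · exact (adj_mk hbe).1 h2
      · rw [disjoint_left]
        intro f hf
        simp only [mem_insert, mem_singleton] at hf
        rcases hf with rfl | rfl
        · exact fun hh => h3 ((adj_mk hae).2 hh)
        · exact fun hh => h4 ((adj_mk hbc).2 hh)
    unfold switchResult
    rw [if_pos hcond, swapStep_eq_swapG hac hbe hae hbc hG']
    rfl
  unfold proposalCount
  refine Finset.sum_pos' (fun _ _ => Nat.zero_le _) ⟨_, hS, ?_⟩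
  refine Finset.sum_pos' (fun _ _ => Nat.zero_le _) ⟨_, hF, ?_⟩
  refine Finset.sum_pos' (fun _ _ => Nat.zero_le _) ⟨_, mem_erase.2 ⟨hne, hF'⟩, ?_⟩
  rw [if_pos hres]
  exact Nat.one_pos

/-- Two graphs agree on all slots touching `W`. -/
def AgreeOn (H H' : Finset (Edge n)) (W : Finset (Fin n)) : Prop :=
  ∀ w ∈ W, ∀ x, Adj H w x ↔ Adj H' w x

/-- Existence of the fourth vertex of a switch. -/
lemma exists_switch_vertex (H : Finset (Edge n)) (W : Finset (Fin n)) {x y : Fin n}
    (hxW : x ∉ W) (hyW : y ∉ W)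
    (h : (nbr H y \ W).card < (nbr H x \ W).card) :
    ∃ z, z ∉ W ∧ z ≠ x ∧ z ≠ y ∧ Adj H z x ∧ ¬ Adj H z y := by
  classical
  have hlt : ((nbr H y \ W).erase x).card < ((nbr H x \ W).erase y).card := by
    by_cases hxy : Adj H x y
    · have h1 : y ∈ nbr H x \ W := mem_sdiff.2 ⟨mem_nbr.2 hxy, hyW⟩
      have h2 : x ∈ nbr H y \ W := mem_sdiff.2 ⟨mem_nbr.2 hxy.symm, hxW⟩
      rw [card_erase_of_mem h1, card_erase_of_mem h2]
      have : 0 < (nbr H y \ W).card := card_pos.2 ⟨x, h2⟩
      omega
    · have h1 : y ∉ nbr H x \ W := fun hh => hxy (mem_nbr.1 (mem_sdiff.1 hh).1)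
      have h2 : x ∉ nbr H y \ W := fun hh => hxy (mem_nbr.1 (mem_sdiff.1 hh).1).symm
      rwa [erase_eq_of_notMem h1, erase_eq_of_notMem h2]
  obtain ⟨z, hz, hz'⟩ := exists_mem_notMem_of_card_lt_card hlt
  obtain ⟨hzy, hz1⟩ := mem_erase.1 hz
  obtain ⟨hzx, hzW⟩ := mem_sdiff.1 hz1
  have hzxA : Adj H x z := mem_nbr.1 hzx
  have hzne : z ≠ x := hzxA.ne.symm
  refine ⟨z, hzW, hzne, hzy, hzxA.symm, fun hzyA => hz' ?_⟩
  exact mem_erase.2 ⟨hzne, mem_sdiff.2 ⟨mem_nbr.2 hzyA.symm, hzW⟩⟩

open Classical in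
/-- Degree splitting relative to a frozen set and a vertex outside it. -/
lemma card_nbr_split (H : Finset (Edge n)) (W : Finset (Fin n)) {v : Fin n} (hv : v ∉ W) (u : Fin n) :
    (nbr H u).card = (nbr H u ∩ W).card + (if Adj H u v then 1 else 0) +
      (nbr H u \ insert v W).card := by
  classical
  have h1 : (nbr H u).card = (nbr H u ∩ W).card + (nbr H u \ W).card :=
    (card_inter_add_card_sdiff _ _).symm
  have h2 : (nbr H u \ W).card = (if Adj H u v then 1 else 0) + (nbr H u \ insert v W).card := by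
    by_cases huv : Adj H u v
    · rw [if_pos huv]
      have hm : v ∈ nbr H u \ W := mem_sdiff.2 ⟨mem_nbr.2 huv, hv⟩
      have : nbr H u \ insert v W = (nbr H u \ W).erase v := by
        ext w; simp only [mem_sdiff, mem_insert, mem_erase]; tauto
      rw [this, card_erase_of_mem hm]
      have : 0 < (nbr H u \ W).card := card_pos.2 ⟨v, hm⟩
      omega
    · rw [if_neg huv, zero_add]
      congr 1
      ext w
      simp only [mem_sdiff, mem_insert, not_or]
      constructor
      · rintro ⟨h1, h2⟩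
        refine ⟨h1, ?_, h2⟩
        rintro rfl
        exact huv (mem_nbr.1 h1)
      · rintro ⟨h1, _, h2⟩
        exact ⟨h1, h2⟩
  omega

/-- Connected by switches. -/
abbrev Conn : Finset (Edge n) → Finset (Edge n) → Prop := Relation.ReflTransGen SwapStep

lemma Conn.symm {G G' : Finset (Edge n)} (h : Conn G G') : Conn G' G := by
  induction h with
  | refl => exact Relation.ReflTransGen.refl
  | tail _ hs ih => exact Relation.ReflTransGen.head hs.symm ih

/-- Performing a switch among vertices outside `W`, with the explicit description of the result. -/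
lemma exists_swap {H : Finset (Edge n)} {a b c e : Fin n}
    (hab : a ≠ b) (hac : a ≠ c) (hae : a ≠ e) (hbc : b ≠ c) (hbe : b ≠ e) (hce : c ≠ e)
    (h1 : Adj H a c) (h2 : Adj H b e) (h3 : ¬ Adj H a e) (h4 : ¬ Adj H b c) :
    ∃ H1, SwapStep H H1 ∧ (∀ w t, w ≠ a → w ≠ b → w ≠ c → w ≠ e → (Adj H1 w t ↔ Adj H w t)) ∧
      (∀ t, Adj H1 a t ↔ (Adj H a t ∧ t ≠ c) ∨ t = e) := by
  refine ⟨swapG H a b c e hac hbe hae hbc, swapStep_swapG H hab hac hae hbc hbe hce h1 h2 h3 h4,
    ?_, ?_⟩
  · intro w t h5 h6 h7 h8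
    rw [adj_swapG]
    simp [IsPair, h5, h6, h7, h8]
  · intro t
    rw [adj_swapG]
    simp [IsPair, hab, hac, hae]

/-- One reduction round: make two graphs agree on `v` as well, by switches off `W`. -/
lemma reduce_nbr (W : Finset (Fin n)) {v : Fin n} (hv : v ∉ W) (m : ℕ) :
    ∀ H H' : Finset (Edge n), (∀ u, deg H u = deg H' u) → AgreeOn H H' W →
      (nbr H v \ nbr H' v).card = m →
      ∃ K K', Conn H K ∧ Conn H' K' ∧ (∀ u, deg K u = deg K' u) ∧ AgreeOn K K' (insert v W) := by
  classical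
  induction m with
  | zero =>
    intro H H' hdeg hag hm
    refine ⟨H, H', Relation.ReflTransGen.refl, Relation.ReflTransGen.refl, hdeg, ?_⟩
    have hsub : nbr H v ⊆ nbr H' v := by
      have := card_eq_zero.1 hm
      exact sdiff_eq_empty_iff_subset.1 this
    have hcard : (nbr H v).card = (nbr H' v).card := by
      rw [← deg_eq_card_nbr, ← deg_eq_card_nbr, hdeg]
    have heq : nbr H v = nbr H' v := eq_of_subset_of_card_le hsub (le_of_eq hcard.symm)
    intro w hw x
    rcases mem_insert.1 hw with rfl | hw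
    · rw [← mem_nbr, ← mem_nbr, heq]
    · exact hag w hw x
  | succ m ih =>
    intro H H' hdeg hag hm
    have hcard : (nbr H v).card = (nbr H' v).card := by
      rw [← deg_eq_card_nbr, ← deg_eq_card_nbr, hdeg]
    have hm' : (nbr H' v \ nbr H v).card = m + 1 := by
      rw [← hm]
      have h1 := card_sdiff_add_card_inter (nbr H v) (nbr H' v)
      have h2 := card_sdiff_add_card_inter (nbr H' v) (nbr H v)
      rw [inter_comm] at h2
      omega
    obtain ⟨y, hy⟩ : (nbr H v \ nbr H' v).Nonempty := card_pos.1 (by omega)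
    obtain ⟨x, hx⟩ : (nbr H' v \ nbr H v).Nonempty := card_pos.1 (by omega)
    obtain ⟨hy1, hy2⟩ := mem_sdiff.1 hy
    obtain ⟨hx1, hx2⟩ := mem_sdiff.1 hx
    have hAy : Adj H v y := mem_nbr.1 hy1
    have hAy' : ¬ Adj H' v y := fun h => hy2 (mem_nbr.2 h)
    have hAx' : Adj H' v x := mem_nbr.1 hx1
    have hAx : ¬ Adj H v x := fun h => hx2 (mem_nbr.2 h)
    have hxy : x ≠ y := by
      rintro rfl
      exact hAx hAy
    have hyv : y ≠ v := hAy.ne.symm
    have hxv : x ≠ v := hAx'.ne.symm
    have hyW : y ∉ W := fun h => hAy' ((hag y h v).1 hAy.symm).symm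
    have hxW : x ∉ W := fun h => hAx (((hag x h v).2 hAx'.symm).symm)
    set W' := insert v W with hW'
    have hxW' : x ∉ W' := by simp [hW', hxv, hxW]
    have hyW' : y ∉ W' := by simp [hW', hyv, hyW]
    -- residual degree relations
    have hsplit : ∀ u, u ∉ W →
        (nbr H u ∩ W).card = (nbr H' u ∩ W).card := by
      intro u _
      congr 1
      ext w
      simp only [mem_inter, mem_nbr]
      constructor
      · rintro ⟨h1, h2⟩
        exact ⟨((hag w h2 u).1 h1.symm).symm, h2⟩
      · rintro ⟨h1, h2⟩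
        exact ⟨((hag w h2 u).2 h1.symm).symm, h2⟩
    have hdx : (nbr H x \ W').card = (nbr H' x \ W').card + 1 := by
      have h1 := card_nbr_split H W hv x
      have h2 := card_nbr_split H' W hv x
      rw [← hW'] at h1 h2
      have h3 : (nbr H x).card = (nbr H' x).card := by
        rw [← deg_eq_card_nbr, ← deg_eq_card_nbr, hdeg]
      have h4 := hsplit x hxW
      rw [if_neg (fun h => hAx h.symm)] at h1
      rw [if_pos hAx'.symm] at h2
      omega
    have hdy : (nbr H' y \ W').card = (nbr H y \ W').card + 1 := by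
      have h1 := card_nbr_split H W hv y
      have h2 := card_nbr_split H' W hv y
      rw [← hW'] at h1 h2
      have h3 : (nbr H y).card = (nbr H' y).card := by
        rw [← deg_eq_card_nbr, ← deg_eq_card_nbr, hdeg]
      have h4 := hsplit y hyW
      rw [if_pos hAy.symm] at h1
      rw [if_neg (fun h => hAy' h.symm)] at h2
      omega
    by_cases hcase : (nbr H y \ W').card < (nbr H x \ W').card
    · -- switch in H
      obtain ⟨z, hzW, hzx, hzy, hz1, hz2⟩ := exists_switch_vertex H W' hxW' hyW' hcase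
      have hzv : z ≠ v := by
        rintro rfl
        exact hzW (mem_insert_self _ _)
      have hzW0 : z ∉ W := fun h => hzW (mem_insert_of_mem h)
      obtain ⟨H1, hst, hoff, hnb⟩ := exists_swap (a := v) (b := z) (c := y) (e := x)
        hzv.symm hyv.symm hxv.symm hzy hzx hxy.symm hAy hz1 hAx hz2
      have hag1 : AgreeOn H1 H' W := by
        intro w hw t
        have h1 : w ≠ v := by rintro rfl; exact hv hw
        have h2 : w ≠ z := by rintro rfl; exact hzW0 hw
        have h3 : w ≠ y := by rintro rfl; exact hyW hw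
        have h4 : w ≠ x := by rintro rfl; exact hxW hw
        rw [hoff w t h1 h2 h3 h4]
        exact hag w hw t
      have hdeg1 : ∀ u, deg H1 u = deg H' u := fun u => by rw [hst.deg_eq, hdeg]
      have hm1 : (nbr H1 v \ nbr H' v).card = m := by
        have : nbr H1 v \ nbr H' v = (nbr H v \ nbr H' v).erase y := by
          ext t
          simp only [mem_sdiff, mem_erase, mem_nbr, hnb]
          constructor
          · rintro ⟨h1 | rfl, h2⟩
            · exact ⟨h1.2, h1.1, h2⟩
            · exact absurd hAx' h2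
          · rintro ⟨h1, h2, h3⟩
            exact ⟨Or.inl ⟨h2, h1⟩, h3⟩
        rw [this, card_erase_of_mem hy, hm]
        rfl
      obtain ⟨K, K', h1, h2, h3, h4⟩ := ih H1 H' hdeg1 hag1 hm1
      exact ⟨K, K', Relation.ReflTransGen.head hst h1, h2, h3, h4⟩
    · -- switch in H'
      have hcase' : (nbr H' x \ W').card < (nbr H' y \ W').card := by omega
      obtain ⟨z, hzW, hzy, hzx, hz1, hz2⟩ := exists_switch_vertex H' W' hyW' hxW' hcase'
      have hzv : z ≠ v := by
        rintro rfl
        exact hzW (mem_insert_self _ _)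
      have hzW0 : z ∉ W := fun h => hzW (mem_insert_of_mem h)
      obtain ⟨H1, hst, hoff, hnb⟩ := exists_swap (a := v) (b := z) (c := x) (e := y)
        hzv.symm hxv.symm hyv.symm hzx hzy hxy hAx' hz1 hAy' hz2
      have hag1 : AgreeOn H H1 W := by
        intro w hw t
        have h1 : w ≠ v := by rintro rfl; exact hv hw
        have h2 : w ≠ z := by rintro rfl; exact hzW0 hw
        have h3 : w ≠ y := by rintro rfl; exact hyW hw
        have h4 : w ≠ x := by rintro rfl; exact hxW hw
        rw [hoff w t h1 h2 h4 h3]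
        exact hag w hw t
      have hdeg1 : ∀ u, deg H u = deg H1 u := fun u => by rw [hst.deg_eq, hdeg]
      have hm1 : (nbr H v \ nbr H1 v).card = m := by
        have : nbr H v \ nbr H1 v = (nbr H v \ nbr H' v).erase y := by
          ext t
          simp only [mem_sdiff, mem_erase, mem_nbr, hnb, not_or, not_and, not_not]
          constructor
          · rintro ⟨h1, h2, h3⟩
            refine ⟨h3, h1, fun h5 => ?_⟩
            have h6 := h2 h5
            subst h6
            exact hAx h1
          · rintro ⟨h1, h2, h3⟩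
            exact ⟨h2, fun h => absurd h h3, h1⟩
        rw [this, card_erase_of_mem hy, hm]
        rfl
      obtain ⟨K, K', h1, h2, h3, h4⟩ := ih H H1 hdeg1 hag1 hm1
      exact ⟨K, K', h1, Relation.ReflTransGen.head hst h2, h3, h4⟩

/-- Two graphs with the same degrees are connected by switches. -/
theorem conn_of_deg_eq {G G' : Finset (Edge n)} (hdeg : ∀ u, deg G u = deg G' u) : Conn G G' := by
  classical
  have key : ∀ W : Finset (Fin n), ∃ K K', Conn G K ∧ Conn G' K' ∧
      (∀ u, deg K u = deg K' u) ∧ AgreeOn K K' W := by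
    intro W
    induction W using Finset.induction_on with
    | empty =>
      exact ⟨G, G', Relation.ReflTransGen.refl, Relation.ReflTransGen.refl, hdeg,
        fun w hw => absurd hw (notMem_empty w)⟩
    | insert v W hv ih =>
      obtain ⟨K, K', h1, h2, h3, h4⟩ := ih
      obtain ⟨L, L', h5, h6, h7, h8⟩ := reduce_nbr W hv _ K K' h3 h4 rfl
      exact ⟨L, L', h1.trans h5, h2.trans h6, h7, h8⟩
  obtain ⟨K, K', h1, h2, _, h4⟩ := key univ
  have : K = K' := graph_ext fun x y => h4 x (mem_univ _) y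
  subst this
  exact h1.trans h2.symm

/-- Connectivity of the switch graph on the realizations of a degree vector. -/
theorem switch_connected {d : Fin n → ℕ} {G G' : Finset (Edge n)} (hG : G ∈ realizations d)
    (hG' : G' ∈ realizations d) :
    Relation.ReflTransGen
      (fun A B => A ∈ realizations d ∧ B ∈ realizations d ∧ 0 < proposalCount A B) G G' := by
  have hdeg : ∀ u, deg G u = deg G' u := by
    simp only [realizations, mem_filter, mem_univ, true_and] at hG hG'
    intro u
    rw [hG, hG']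
  have hc := conn_of_deg_eq hdeg
  have key : ∀ {K}, Conn G K → K ∈ realizations d ∧ Relation.ReflTransGen
      (fun A B => A ∈ realizations d ∧ B ∈ realizations d ∧ 0 < proposalCount A B) G K := by
    intro K hK
    induction hK with
    | refl => exact ⟨hG, Relation.ReflTransGen.refl⟩
    | tail _ hs ih =>
      obtain ⟨h1, h2⟩ := ih
      exact ⟨hs.mem_realizations h1, h2.tail ⟨h1, hs.mem_realizations h1, hs.proposalCount_pos⟩⟩
  exact (key hc).2

/-- A function constant along proposals is constant on realizations. -/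
theorem const_of_switch {d : Fin n → ℕ} {α : Type*} (f : Finset (Edge n) → α)
    (hf : ∀ A B, A ∈ realizations d → B ∈ realizations d → SwapStep A B → f A = f B)
    {G G' : Finset (Edge n)} (hG : G ∈ realizations d) (hG' : G' ∈ realizations d) :
    f G = f G' := by
  have hdeg : ∀ u, deg G u = deg G' u := by
    simp only [realizations, mem_filter, mem_univ, true_and] at hG hG'
    intro u
    rw [hG, hG']
  have key : ∀ {K}, Conn G K → K ∈ realizations d ∧ f G = f K := by
    intro K hK
    induction hK with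
    | refl => exact ⟨hG, rfl⟩
    | tail _ hs ih =>
      obtain ⟨h1, h2⟩ := ih
      exact ⟨hs.mem_realizations h1, h2.trans (hf _ _ h1 (hs.mem_realizations h1) hs)⟩
  exact (key (conn_of_deg_eq hdeg)).2

end Crest.Agent.SW
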